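import Crest.Agent.Lib.TM.Defs

/-! # Lib/TM/Cv : convolution -/

set_option autoImplicit false

namespace Crest.Agent.TM

open Finset Crest.Agent.Bern

/-- truncated convolution -/
def cv (z z' : ℕ → ℤ) (u : ℕ) : ℤ := ∑ s ∈ range (u + 1), z s * z' (u - s)

end Crest.Agent.TM
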