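import Crest.Agent.Lib.Bern.Lane2

/-! # Lib/TM/Defs : kernel Taylor models (owner helper16).
All coefficients of a multivariate Taylor model are packed in one natural number, `W` bits per lane, lane `t`
carries the monomial `m t`; the remainder bound sits above the `L` lanes. -/

set_option autoImplicit false

namespace Crest.Agent.TM

open Finset Crest.Agent.Bern

/-- parameters: scale `2^F`, bias `2^K`, guard `g`, lane width `W`, `L` lanes, degree of lane `t` is `t / M`, order `N`,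
valid lanes `V`, monomial values `m` -/
structure Cfg where
  F : ℕ
  K : ℕ
  g : ℕ
  W : ℕ
  L : ℕ
  M : ℕ
  N : ℕ
  V : ℕ → Prop
  m : ℕ → ℝ

structure Cfg.Ok (c : Cfg) : Prop where
  hW : c.W = c.F + c.K + 1
  hL : c.L = c.M * (c.N + 1)
  hM : 0 < c.M
  hg : 0 < c.g
  hLF : 4 * c.L < 2 ^ c.F
  V0 : c.V 0
  m0 : c.m 0 = 1
  le1 : ∀ t, |c.m t| ≤ 1
  mul : ∀ s t, c.V s → c.V t → s + t < c.L → c.V (s + t) ∧ c.m (s + t) = c.m s * c.m t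
  deg : ∀ s t, c.V s → c.V t → s < c.L → t < c.L → c.L ≤ s + t → c.N < s / c.M + t / c.M

/-- packing of `L` lanes -/
def Cfg.pk (c : Cfg) (a : ℕ → ℕ) : ℕ := ∑ t ∈ range c.L, a t * 2 ^ (c.W * t)

/-- unit of the remainder -/
def Cfg.top (c : Cfg) : ℕ := 2 ^ (c.W * c.L)

/-- one in each lane -/
def Cfg.O (c : Cfg) : ℕ := ones c.W c.L

/-- lanes bounded by `U`, bias `b` -/
def Cfg.Rep (c : Cfg) (U b X : ℕ) (v : ℝ) : Prop :=
  ∃ (a : ℕ → ℕ) (r : ℕ), X = c.pk a + r * c.top ∧ (∀ t < c.L, a t ≤ U) ∧ (∀ t < c.L, ¬ c.V t → a t = b) ∧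
    |2 ^ c.F * v - ∑ t ∈ range c.L, ((a t : ℝ) - (b : ℝ)) * c.m t| ≤ (r : ℝ)

/-- normal form -/
def Cfg.In (c : Cfg) (X : ℕ) (v : ℝ) : Prop := c.Rep (2 ^ (c.K + 1) - 1) (2 ^ c.K) X v

/-- accumulator of a linear combination with total weight `C` -/
def Cfg.Acc (c : Cfg) (C X : ℕ) (v : ℝ) : Prop := c.Rep (C * 2 ^ (c.K + 1)) (C * 2 ^ c.K) X v

/-- operand of a product: signed lanes modulo `top`, remainder `r`, `T j` bounds the coefficients of degree `≥ j` -/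
def Cfg.Nrm (c : Cfg) (XM r : ℕ) (T : ℕ → ℕ) (v : ℝ) : Prop :=
  ∃ z : ℕ → ℤ, (XM : ℤ) ≡ ∑ t ∈ range c.L, z t * 2 ^ (c.W * t) [ZMOD 2 ^ (c.W * c.L)] ∧
    (∀ t < c.L, ¬ c.V t → z t = 0) ∧ (∀ j ≤ c.N, ∑ t ∈ Ico (c.M * j) c.L, |z t| ≤ (T j : ℤ)) ∧
    |2 ^ c.F * v - ∑ t ∈ range c.L, (z t : ℝ) * c.m t| ≤ (r : ℝ)

/-- positive parts of the lanes -/
def Cfg.ps (c : Cfg) (X : ℕ) : ℕ := X &&& (((X >>> c.K) &&& c.O) * (2 ^ c.K - 1))

theorem Cfg.Ok.W_pos {c : Cfg} (hc : c.Ok) : 1 ≤ c.W := by rw [hc.hW]; omega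

theorem Cfg.Ok.L_pos {c : Cfg} (hc : c.Ok) : 0 < c.L := by rw [hc.hL]; exact Nat.mul_pos hc.hM (by omega)

theorem Cfg.O_eq {c : Cfg} (hc : c.Ok) : c.O = c.pk (fun _ => 1) := by
  unfold Cfg.O Cfg.pk
  rw [ones_eq hc.W_pos]; simp

theorem Cfg.pk_lt {c : Cfg} {a : ℕ → ℕ} (ha : ∀ t < c.L, a t < 2 ^ c.W) : c.pk a < c.top := by
  unfold Cfg.pk Cfg.top
  rw [Nat.mul_comm c.W c.L]
  exact sum_lt_two_pow _ _ _ ha

/-- lanes of a packed number with a remainder on top -/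
theorem Cfg.lane_pk {c : Cfg} {a : ℕ → ℕ} (ha : ∀ t < c.L, a t < 2 ^ c.W) (r : ℕ) {t : ℕ} (ht : t < c.L) :
    lane c.W (c.pk a + r * c.top) t = a t := by
  have h1 := lane_sum c.W c.L a ha t
  rw [if_pos ht] at h1
  rw [← h1]
  show lane c.W (c.pk a + r * c.top) t = lane c.W (c.pk a) t
  obtain ⟨k, hk⟩ := Nat.exists_eq_add_of_lt ht
  have e : r * c.top = 2 ^ (c.W * t) * (2 ^ c.W * (r * 2 ^ (c.W * k))) := by
    unfold Cfg.top; rw [hk]; ring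
  unfold lane
  rw [e, Nat.add_mul_div_left _ _ (by positivity), Nat.add_mul_mod_self_left]

theorem Cfg.shr_pk {c : Cfg} {a : ℕ → ℕ} (ha : ∀ t < c.L, a t < 2 ^ c.W) (r : ℕ) :
    (c.pk a + r * c.top) >>> (c.W * c.L) = r := by
  have h := Cfg.pk_lt ha
  rw [Nat.shiftRight_eq_div_pow]
  show (c.pk a + r * c.top) / c.top = r
  have hp : 0 < c.top := by unfold Cfg.top; positivity
  rw [Nat.add_mul_div_right _ _ hp, Nat.div_eq_of_lt h, zero_add]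

theorem Cfg.low_pk {c : Cfg} {a : ℕ → ℕ} (ha : ∀ t < c.L, a t < 2 ^ c.W) (r : ℕ) :
    (c.pk a + r * c.top) &&& (c.top - 1) = c.pk a := by
  have h := Cfg.pk_lt ha
  unfold Cfg.top at *
  rw [Nat.and_two_pow_sub_one_eq_mod, Nat.add_mul_mod_self_right, Nat.mod_eq_of_lt h]

end Crest.Agent.TM
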