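import Crest.Agent.Lib.TM.Defs

/-! # Lib/TM/Fin : renormalisation of an accumulator, division by `2^G` -/

set_option autoImplicit false

namespace Crest.Agent.TM

open Finset Crest.Agent.Bern

theorem fin_mask {W G X t n M : ℕ} (hn : n + G ≤ W) (hM : M < 2 ^ n) :
    lane W (X >>> G) t &&& M = (lane W X t / 2 ^ G) &&& M := by
  refine Nat.eq_of_testBit_eq fun i => ?_
  rw [Nat.testBit_and, Nat.testBit_and]
  by_cases hi : i < n
  · rw [Nat.testBit_div_two_pow, testBit_lane, testBit_lane, Nat.testBit_shiftRight]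
    have h2 : G + (W * t + i) = W * t + (i + G) := by ring
    rw [h2, decide_eq_true (show i < W by omega), decide_eq_true (show i + G < W by omega)]
  · have : M.testBit i = false :=
      Nat.testBit_lt_two_pow (hM.trans_le (Nat.pow_le_pow_right (by norm_num) (by omega)))
    simp [this]

theorem fin_top {K g q : ℕ} (hg : 0 < g) (hq : q < 2 ^ (K + g + 1))
    (h : q &&& (2 ^ (K + g + 1) - 2 ^ (K + 1)) = 2 ^ (K + g)) : q = 2 ^ (K + g) + q % 2 ^ (K + 1) := by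
  obtain ⟨g, rfl⟩ : ∃ k, g = k + 1 := ⟨g - 1, by omega⟩
  have e1 : 2 ^ (K + (g + 1) + 1) - 2 ^ (K + 1) = (2 ^ (g + 1) - 1) * 2 ^ (K + 1) := by
    rw [Nat.sub_mul, one_mul, ← pow_add]; congr 2; ring
  have e2 : 2 ^ (K + (g + 1)) = 2 ^ g * 2 ^ (K + 1) := by rw [← pow_add]; congr 1; ring
  have hp : 0 < 2 ^ (K + 1) := by positivity
  have h1 := congrArg (fun z => z >>> (K + 1)) h
  simp only [Nat.shiftRight_and_distrib] at h1
  rw [e1, e2] at h1
  simp only [Nat.shiftRight_eq_div_pow] at h1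
  rw [Nat.mul_div_cancel _ hp, Nat.mul_div_cancel _ hp, Nat.and_two_pow_sub_one_eq_mod, Nat.mod_eq_of_lt] at h1
  · have := Nat.div_add_mod q (2 ^ (K + 1))
    rw [h1] at this
    rw [e2, Nat.mul_comm]
    exact this.symm
  · rw [Nat.div_lt_iff_lt_mul hp, ← pow_add]
    have : g + 1 + (K + 1) = K + (g + 1) + 1 := by ring
    rw [this]; exact hq

/-- Lanes of `Z + D O` are `s t = a t + D < 2^(K+G+g+1) ≤ 2^W`; the low `W - G` bits of lane `t` of `Y` are `s t / 2^G`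
(compare bits, `testBit_lane`); the test says `s t / 2^G = 2^(K+g) + s t / 2^G % 2^(K+1)`; new lanes
`a' t = s t / 2^G % 2^(K+1)`, and `|2^G (a' t - 2^K) - (a t - C 2^K)| ≤ 2^G`; `Y >>> (W L) = r / 2^G`. -/
theorem fin_s {c : Cfg} (hc : c.Ok) {C Z D G Y : ℕ} {v : ℝ} (h : c.Acc C Z v)
    (hD : D + C * 2 ^ c.K = 2 ^ (c.K + G + c.g) + 2 ^ (c.K + G))
    (hB : C * 2 ^ (c.K + 1) + D < 2 ^ (c.K + G + c.g + 1)) (hG : c.K + G + c.g + 1 ≤ c.W)
    (hY : Y = (Z + D * c.O) >>> G)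
    (ht : Y &&& ((2 ^ (c.K + c.g + 1) - 2 ^ (c.K + 1)) * c.O) = 2 ^ (c.K + c.g) * c.O) :
    c.In ((Y &&& ((2 ^ (c.K + 1) - 1) * c.O)) + (Y >>> (c.W * c.L) + (c.L + 1)) * c.top) (v / 2 ^ G) := by
  obtain ⟨a, r, hZ, ha, hV, hv⟩ := h
  have hW := hc.W_pos
  have hg := hc.hg
  have hX : Z + D * c.O = c.pk (fun t => a t + D) + r * c.top := by
    rw [hZ, Cfg.O_eq hc]
    unfold Cfg.pk
    simp only [add_mul, sum_add_distrib, mul_sum, one_mul]
    ring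
  have hs : ∀ t < c.L, a t + D < 2 ^ (c.K + G + c.g + 1) := fun t ht => by have := ha t ht; omega
  have hsW : ∀ t < c.L, (fun t => a t + D) t < 2 ^ c.W := fun t ht =>
    (hs t ht).trans_le (Nat.pow_le_pow_right (by norm_num) hG)
  have hq : ∀ t < c.L, (a t + D) / 2 ^ G < 2 ^ (c.K + c.g + 1) := fun t ht => by
    rw [Nat.div_lt_iff_lt_mul (by positivity), ← pow_add]
    have : c.K + c.g + 1 + G = c.K + G + c.g + 1 := by ring
    rw [this]; exact hs t ht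
  have hpw : 2 ^ (c.K + c.g + 1) ≤ 2 ^ c.W := Nat.pow_le_pow_right (by norm_num) (by omega)
  have hp1 : 2 ^ (c.K + 1) ≤ 2 ^ (c.K + c.g + 1) := Nat.pow_le_pow_right (by norm_num) (by omega)
  have hp2 : 2 ^ (c.K + c.g) < 2 ^ (c.K + c.g + 1) := Nat.pow_lt_pow_right (by norm_num) (by omega)
  have hp0 : 0 < 2 ^ (c.K + 1) := by positivity
  have hl : ∀ t < c.L, ∀ M < 2 ^ (c.K + c.g + 1), lane c.W (Y &&& (M * c.O)) t = ((a t + D) / 2 ^ G) &&& M := by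
    intro t ht M hM
    rw [lane_land, Cfg.O, lane_mul_ones hW (by omega), if_pos ht, hY,
      fin_mask (n := c.K + c.g + 1) (by omega) hM, hX, Cfg.lane_pk hsW r ht]
  have hd : ∀ t < c.L, (a t + D) / 2 ^ G = 2 ^ (c.K + c.g) + (a t + D) / 2 ^ G % 2 ^ (c.K + 1) := fun t h1 => by
    refine fin_top hg (hq t h1) ?_
    rw [← hl t h1 _ (by omega), ht, Cfg.O, lane_mul_ones hW (by omega), if_pos h1]
  have hlt : ∀ t < c.L, (fun t => (a t + D) / 2 ^ G % 2 ^ (c.K + 1)) t < 2 ^ c.W := fun t _ =>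
    (Nat.mod_lt _ hp0).trans_le (by omega)
  refine ⟨fun t => (a t + D) / 2 ^ G % 2 ^ (c.K + 1), r / 2 ^ G + (c.L + 1), ?_, fun t _ => ?_, fun t h1 h2 => ?_, ?_⟩
  · congr 1
    · refine eq_of_lane hW fun t => ?_
      unfold Cfg.pk
      rw [lane_sum c.W c.L _ hlt t]
      split_ifs with h1
      · rw [hl t h1 _ (by omega), Nat.and_two_pow_sub_one_eq_mod]
      · rw [lane_land, Cfg.O, lane_mul_ones hW (by omega), if_neg h1, Nat.and_zero]
    · rw [hY, ← Nat.shiftRight_add, Nat.add_comm G, Nat.shiftRight_add, hX, Cfg.shr_pk hsW,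
        Nat.shiftRight_eq_div_pow]
  · exact Nat.le_sub_one_of_lt (Nat.mod_lt ((a t + D) / 2 ^ G) hp0)
  · obtain ⟨k, hk⟩ : ∃ k, c.g = k + 1 := ⟨c.g - 1, by omega⟩
    have e : a t + D = (2 ^ c.K + 2 ^ (c.K + 1) * 2 ^ k) * 2 ^ G := by
      rw [hV t h1 h2, Nat.add_comm, hD, hk]; ring
    show (a t + D) / 2 ^ G % 2 ^ (c.K + 1) = 2 ^ c.K
    rw [e, Nat.mul_div_cancel _ (by positivity), Nat.add_mul_mod_self_left,
      Nat.mod_eq_of_lt (Nat.pow_lt_pow_right (by norm_num) (by omega))]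
  · have hG0 : (0 : ℝ) < 2 ^ G := by positivity
    have he : ∀ t ∈ range c.L, |((a t : ℝ) - ((C * 2 ^ c.K : ℕ) : ℝ)) / 2 ^ G * c.m t
        - ((((a t + D) / 2 ^ G % 2 ^ (c.K + 1) : ℕ) : ℝ) - ((2 ^ c.K : ℕ) : ℝ)) * c.m t| ≤ 1 := fun t h1 => by
      have h2 := Nat.div_add_mod (a t + D) (2 ^ G)
      have h3 := Nat.mod_lt (a t + D) (show 0 < 2 ^ G by positivity)
      rw [hd t (mem_range.1 h1)] at h2
      generalize (a t + D) / 2 ^ G % 2 ^ (c.K + 1) = b at *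
      generalize (a t + D) % 2 ^ G = e at *
      have h4 : (2 : ℝ) ^ G * (2 ^ (c.K + c.g) + b) + e = a t + D := by exact_mod_cast h2
      have h5 : (e : ℝ) < 2 ^ G := by exact_mod_cast h3
      have h6 : (D : ℝ) + C * 2 ^ c.K = 2 ^ (c.K + G + c.g) + 2 ^ (c.K + G) := by exact_mod_cast hD
      have h7 : ((a t : ℝ) - ((C * 2 ^ c.K : ℕ) : ℝ)) / 2 ^ G * c.m t - ((b : ℝ) - ((2 ^ c.K : ℕ) : ℝ)) * c.m t
          = e / 2 ^ G * c.m t := by
        push_cast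
        have h8 : (a t : ℝ) - C * 2 ^ c.K = 2 ^ G * ((b : ℝ) - 2 ^ c.K) + e := by
          rw [pow_add, pow_add] at h6
          rw [pow_add] at h4
          linear_combination -h4 - h6
        rw [h8]; field_simp; ring
      rw [h7, abs_mul, abs_of_nonneg (by positivity : (0 : ℝ) ≤ e / 2 ^ G)]
      have h9 : (e : ℝ) / 2 ^ G ≤ 1 := (div_le_one hG0).2 h5.le
      exact mul_le_one₀ h9 (abs_nonneg _) (hc.le1 t)
    have h1 := (abs_sum_le_sum_abs _ _).trans (sum_le_sum he)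
    rw [sum_sub_distrib, sum_const, card_range, nsmul_eq_mul, mul_one] at h1
    have h2 : |2 ^ c.F * (v / 2 ^ G) - ∑ t ∈ range c.L, ((a t : ℝ) - ((C * 2 ^ c.K : ℕ) : ℝ)) / 2 ^ G * c.m t|
        ≤ r / 2 ^ G := by
      have e : 2 ^ c.F * (v / 2 ^ G) - ∑ t ∈ range c.L, ((a t : ℝ) - ((C * 2 ^ c.K : ℕ) : ℝ)) / 2 ^ G * c.m t
          = (2 ^ c.F * v - ∑ t ∈ range c.L, ((a t : ℝ) - ((C * 2 ^ c.K : ℕ) : ℝ)) * c.m t) / 2 ^ G := by
        rw [sub_div, sum_div]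
        congr 1
        · ring
        · exact sum_congr rfl fun t _ => by ring
      rw [e, abs_div, abs_of_pos hG0]
      exact div_le_div_of_nonneg_right hv hG0.le
    have h3 : (r : ℝ) / 2 ^ G ≤ ((r / 2 ^ G : ℕ) : ℝ) + 1 := by
      rw [div_le_iff₀ hG0]
      have h4 : r < (r / 2 ^ G + 1) * 2 ^ G := (Nat.div_lt_iff_lt_mul (by positivity)).1 (Nat.lt_succ_self _)
      exact_mod_cast h4.le
    have h4 := abs_sub_le (2 ^ c.F * (v / 2 ^ G))
      (∑ t ∈ range c.L, ((a t : ℝ) - ((C * 2 ^ c.K : ℕ) : ℝ)) / 2 ^ G * c.m t)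
      (∑ t ∈ range c.L, ((((a t + D) / 2 ^ G % 2 ^ (c.K + 1) : ℕ) : ℝ) - ((2 ^ c.K : ℕ) : ℝ)) * c.m t)
    rw [Nat.cast_add, Nat.cast_add, Nat.cast_one]
    linarith

end Crest.Agent.TM
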