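import Crest.Agent.Lib.TM.Defs

/-! # Lib/TM/Inv : constants as operands, bound, inverse -/

set_option autoImplicit false

namespace Crest.Agent.TM

open Finset Crest.Agent.Bern

theorem nrm_cst {c : Cfg} (hc : c.Ok) {x r : ℕ} {T : ℕ → ℕ} {v : ℝ} (hT : x ≤ T 0)
    (h : |2 ^ c.F * v - (x : ℝ)| ≤ (r : ℝ)) : c.Nrm x r T v := by
  have hL := hc.L_pos
  refine ⟨fun t => if t = 0 then (x : ℤ) else 0, ?_, ?_, ?_, ?_⟩
  · rw [Finset.sum_eq_single 0]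
    · simp
    · intro t _ ht; simp [ht]
    · intro h0; exact absurd (mem_range.2 hL) h0
  · intro t _ hV
    have : t ≠ 0 := by rintro rfl; exact hV hc.V0
    simp [this]
  · intro j _
    rcases Nat.eq_zero_or_pos j with rfl | hj
    · rw [Finset.sum_eq_single 0]
      · simpa using hT
      · intro t _ ht; simp [ht]
      · intro h0; exact absurd (by simpa using hL) h0
    · have hM : 0 < c.M * j := Nat.mul_pos hc.hM hj
      rw [Finset.sum_eq_zero]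
      · positivity
      · intro t ht
        have : t ≠ 0 := by have := (mem_Ico.1 ht).1; omega
        simp [this]
  · rw [Finset.sum_eq_single 0]
    · simpa [hc.m0] using h
    · intro t _ ht; simp [ht]
    · intro h0; exact absurd (mem_range.2 hL) h0

theorem nrm_abs {c : Cfg} (hc : c.Ok) {XM r : ℕ} {T : ℕ → ℕ} {v : ℝ} (h : c.Nrm XM r T v) :
    |2 ^ c.F * v| ≤ ((T 0 + r : ℕ) : ℝ) := by
  obtain ⟨z, -, -, hT, hr⟩ := h
  have h0 := hT 0 (Nat.zero_le _)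
  rw [Nat.mul_zero, ← range_eq_Ico] at h0
  have h1 : ∑ t ∈ range c.L, |(z t : ℝ)| ≤ (T 0 : ℝ) := by exact_mod_cast h0
  have h2 : |∑ t ∈ range c.L, (z t : ℝ) * c.m t| ≤ ∑ t ∈ range c.L, |(z t : ℝ)| := by
    refine (abs_sum_le_sum_abs _ _).trans (sum_le_sum fun t _ => ?_)
    rw [abs_mul]
    exact mul_le_of_le_one_right (abs_nonneg _) (hc.le1 t)
  have h3 := abs_add_le (2 ^ c.F * v - ∑ t ∈ range c.L, (z t : ℝ) * c.m t) (∑ t ∈ range c.L, (z t : ℝ) * c.m t)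
  rw [sub_add_cancel] at h3
  push_cast
  linarith

/-- `v⁻¹ = a / (1 - u)`; `a = A / 2^F`, `|u| ≤ mu / 2^F < 1` -/
theorem inv_err (F N A mu : ℕ) {v u : ℝ} (hu : u = 1 - v * ((A : ℝ) / 2 ^ F)) (h : |2 ^ F * u| ≤ (mu : ℝ))
    (hmu : mu < 2 ^ F) :
    |2 ^ F * (v⁻¹ - (∑ i ∈ range (N + 1), u ^ i) * ((A : ℝ) / 2 ^ F))| ≤
      ((A * mu ^ (N + 1) / (2 ^ (F * N) * (2 ^ F - mu)) + 1 : ℕ) : ℝ) := by
  have hP : (0 : ℝ) < 2 ^ F := by positivity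
  have hmuR : (mu : ℝ) < 2 ^ F := by exact_mod_cast hmu
  have hu1 : |u| ≤ (mu : ℝ) / 2 ^ F := by
    rw [le_div_iff₀ hP, mul_comm]
    rwa [abs_mul, abs_of_pos hP] at h
  have hq : (mu : ℝ) / 2 ^ F < 1 := (div_lt_one hP).2 hmuR
  have h1u : 1 - (mu : ℝ) / 2 ^ F ≤ 1 - u := by linarith [le_abs_self u]
  have h1p : 0 < 1 - u := by linarith
  have hva : v * ((A : ℝ) / 2 ^ F) = 1 - u := by rw [hu]; ring
  have hv : v ≠ 0 := by
    rintro rfl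
    rw [zero_mul] at hva
    linarith
  have hinv : v⁻¹ = ((A : ℝ) / 2 ^ F) / (1 - u) := by
    rw [eq_div_iff h1p.ne', ← hva, ← mul_assoc, inv_mul_cancel₀ hv, one_mul]
  have hg : (∑ i ∈ range (N + 1), u ^ i) * (1 - u) = 1 - u ^ (N + 1) := geom_sum_mul_neg u (N + 1)
  have hS : (∑ i ∈ range (N + 1), u ^ i) = (1 - u ^ (N + 1)) / (1 - u) := by
    rw [eq_div_iff h1p.ne', hg]
  have e : 2 ^ F * (v⁻¹ - (∑ i ∈ range (N + 1), u ^ i) * ((A : ℝ) / 2 ^ F)) = A * u ^ (N + 1) / (1 - u) := by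
    rw [hinv, hS]; field_simp; ring
  have hD : 0 < 2 ^ (F * N) * (2 ^ F - mu) := Nat.mul_pos (by positivity) (by omega)
  have hlt := Nat.lt_mul_div_succ (A * mu ^ (N + 1)) hD
  have hDR : ((2 ^ (F * N) * (2 ^ F - mu) : ℕ) : ℝ) = (2 ^ F) ^ N * (2 ^ F - mu) := by
    rw [Nat.cast_mul, Nat.cast_sub hmu.le, pow_mul]; push_cast; ring
  have hlt' : (A : ℝ) * (mu : ℝ) ^ (N + 1) ≤ (2 ^ F) ^ N * (2 ^ F - mu) *
      ((A * mu ^ (N + 1) / (2 ^ (F * N) * (2 ^ F - mu)) + 1 : ℕ) : ℝ) := by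
    rw [← hDR]
    exact_mod_cast hlt.le
  have hpos : (0 : ℝ) < (2 ^ F) ^ N * (2 ^ F - mu) := mul_pos (by positivity) (by linarith)
  rw [e, abs_div, abs_mul, abs_pow, abs_of_pos h1p, abs_of_nonneg (Nat.cast_nonneg A : (0 : ℝ) ≤ A)]
  calc (A : ℝ) * |u| ^ (N + 1) / (1 - u)
      ≤ (A : ℝ) * ((mu : ℝ) / 2 ^ F) ^ (N + 1) / (1 - (mu : ℝ) / 2 ^ F) := by
        apply div_le_div₀ (by positivity) _ (by linarith) h1u
        exact mul_le_mul_of_nonneg_left (pow_le_pow_left₀ (abs_nonneg u) hu1 _) (Nat.cast_nonneg A)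
    _ = (A : ℝ) * (mu : ℝ) ^ (N + 1) / ((2 ^ F) ^ N * (2 ^ F - mu)) := by
        have : (2 : ℝ) ^ F - mu ≠ 0 := by linarith
        rw [div_pow]
        field_simp
        ring
    _ ≤ _ := by rw [div_le_iff₀ hpos, mul_comm _ ((2 ^ F) ^ N * (2 ^ F - (mu : ℝ)))]; exact hlt'

end Crest.Agent.TM
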