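import Crest.Agent.Lib.TM.Defs

/-! # Lib/TM/Lin : linear operations -/

set_option autoImplicit false

namespace Crest.Agent.TM

open Finset Crest.Agent.Bern

theorem lin_pk_smul (c : Cfg) (n : ℕ) (a : ℕ → ℕ) : c.pk (fun t => n * a t) = n * c.pk a := by
  unfold Cfg.pk; rw [mul_sum]; exact sum_congr rfl fun t _ => by ring

theorem lin_pk_add (c : Cfg) (a b : ℕ → ℕ) : c.pk (fun t => a t + b t) = c.pk a + c.pk b := by
  unfold Cfg.pk; rw [← sum_add_distrib]; exact sum_congr rfl fun t _ => by ring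

theorem lin_pk_congr (c : Cfg) {a b : ℕ → ℕ} (h : ∀ t < c.L, a t = b t) : c.pk a = c.pk b := by
  unfold Cfg.pk; exact sum_congr rfl fun t ht => by rw [h t (mem_range.1 ht)]

theorem lin_pk_one (c : Cfg) {w : ℕ} (hw : w < c.L) (x : ℕ) :
    c.pk (fun t => if t = w then x else 0) = x * 2 ^ (c.W * w) := by
  unfold Cfg.pk
  rw [sum_eq_single w]
  · simp
  · intro b _ hb; simp [hb]
  · intro h; exact absurd (mem_range.2 hw) h

theorem lin_pk_cst {c : Cfg} (hc : c.Ok) (n : ℕ) : n * c.O = c.pk fun _ => n := by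
  rw [Cfg.O_eq hc, ← lin_pk_smul]; simp

theorem lin_base {c : Cfg} (hc : c.Ok) (x : ℕ) :
    c.pk (fun t => if t = 0 then x else 2 ^ c.K) = 2 ^ c.K * c.O - 2 ^ c.K + x := by
  have h1 : c.pk (fun t => if t = 0 then 0 else 2 ^ c.K) + 2 ^ c.K = 2 ^ c.K * c.O := by
    have h := lin_pk_one c hc.L_pos (2 ^ c.K)
    rw [Nat.mul_zero, pow_zero, Nat.mul_one] at h
    have h3 := lin_pk_add c (fun t => if t = 0 then 0 else 2 ^ c.K) (fun t => if t = 0 then 2 ^ c.K else 0)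
    rw [h] at h3
    rw [lin_pk_cst hc, ← h3]
    exact lin_pk_congr c fun t _ => by split_ifs <;> simp
  have h2 := lin_pk_one c hc.L_pos x
  rw [Nat.mul_zero, pow_zero, Nat.mul_one] at h2
  rw [← h1, Nat.add_sub_cancel]
  conv_rhs => rw [← h2]
  rw [← lin_pk_add]
  exact lin_pk_congr c fun t _ => by split_ifs <;> simp

theorem acc_one {c : Cfg} {X : ℕ} {v : ℝ} (h : c.In X v) : c.Acc 1 X v := by
  obtain ⟨a, r, h1, h2, h3, h4⟩ := h
  refine ⟨a, r, h1, fun t ht => ?_, fun t ht hv => ?_, ?_⟩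
  · have := h2 t ht; omega
  · rw [h3 t ht hv, one_mul]
  · simpa using h4

theorem acc_term {c : Cfg} {X : ℕ} {v : ℝ} (n : ℕ) (h : c.In X v) : c.Acc n (n * X) ((n : ℝ) * v) := by
  obtain ⟨a, r, h1, h2, h3, h4⟩ := h
  refine ⟨fun t => n * a t, n * r, ?_, fun t ht => ?_, fun t ht hv => ?_, ?_⟩
  · rw [lin_pk_smul, h1]; ring
  · exact Nat.mul_le_mul_left _ (le_trans (h2 t ht) (Nat.sub_le _ _))
  · show n * a t = _
    rw [h3 t ht hv]
  · have e : 2 ^ c.F * ((n : ℝ) * v) - ∑ t ∈ range c.L, (((n * a t : ℕ) : ℝ) - ((n * 2 ^ c.K : ℕ) : ℝ)) * c.m t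
        = n * (2 ^ c.F * v - ∑ t ∈ range c.L, ((a t : ℝ) - ((2 ^ c.K : ℕ) : ℝ)) * c.m t) := by
      rw [mul_sub, mul_sum]
      congr 1
      · ring
      · exact sum_congr rfl fun t _ => by push_cast; ring
    rw [e, abs_mul, Nat.abs_cast, Nat.cast_mul]
    exact mul_le_mul_of_nonneg_left h4 (Nat.cast_nonneg _)

theorem acc_add {c : Cfg} {C C' X X' : ℕ} {v v' : ℝ} (h : c.Acc C X v) (h' : c.Acc C' X' v') :
    c.Acc (C + C') (X + X') (v + v') := by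
  obtain ⟨a, r, h1, h2, h3, h4⟩ := h
  obtain ⟨a', r', h1', h2', h3', h4'⟩ := h'
  refine ⟨fun t => a t + a' t, r + r', ?_, fun t ht => ?_, fun t ht hv => ?_, ?_⟩
  · rw [lin_pk_add, h1, h1']; ring
  · rw [add_mul]; exact Nat.add_le_add (h2 t ht) (h2' t ht)
  · show a t + a' t = _
    rw [h3 t ht hv, h3' t ht hv, add_mul]
  · have e : 2 ^ c.F * (v + v') - ∑ t ∈ range c.L, (((a t + a' t : ℕ) : ℝ) - (((C + C') * 2 ^ c.K : ℕ) : ℝ)) * c.m t
        = (2 ^ c.F * v - ∑ t ∈ range c.L, ((a t : ℝ) - ((C * 2 ^ c.K : ℕ) : ℝ)) * c.m t)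
          + (2 ^ c.F * v' - ∑ t ∈ range c.L, ((a' t : ℝ) - ((C' * 2 ^ c.K : ℕ) : ℝ)) * c.m t) := by
      have : ∑ t ∈ range c.L, (((a t + a' t : ℕ) : ℝ) - (((C + C') * 2 ^ c.K : ℕ) : ℝ)) * c.m t
          = ∑ t ∈ range c.L, ((a t : ℝ) - ((C * 2 ^ c.K : ℕ) : ℝ)) * c.m t
            + ∑ t ∈ range c.L, ((a' t : ℝ) - ((C' * 2 ^ c.K : ℕ) : ℝ)) * c.m t := by
        rw [← sum_add_distrib]
        exact sum_congr rfl fun t _ => by push_cast; ring
      rw [this]; ring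
    rw [e, Nat.cast_add]
    exact (abs_add_le _ _).trans (add_le_add h4 h4')

/-- new lanes `C 2^(K+1) - a t`; `Cfg.shr_pk`, `Cfg.O_eq` -/
theorem acc_neg {c : Cfg} (hc : c.Ok) {C X : ℕ} {v : ℝ} (h : c.Acc C X v) (hC : C * 2 ^ (c.K + 1) < 2 ^ c.W) :
    c.Acc C (C * 2 ^ (c.K + 1) * c.O + 2 * (X >>> (c.W * c.L)) * c.top - X) (-v) := by
  obtain ⟨a, r, h1, h2, h3, h4⟩ := h
  have hs : X >>> (c.W * c.L) = r := by
    rw [h1]; exact Cfg.shr_pk (fun t ht => lt_of_le_of_lt (h2 t ht) hC) r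
  have hp : c.pk (fun t => C * 2 ^ (c.K + 1) - a t) + c.pk a = C * 2 ^ (c.K + 1) * c.O := by
    rw [lin_pk_cst hc, ← lin_pk_add]
    exact lin_pk_congr c fun t ht => Nat.sub_add_cancel (h2 t ht)
  refine ⟨fun t => C * 2 ^ (c.K + 1) - a t, r, ?_, fun t ht => Nat.sub_le _ _, fun t ht hv => ?_, ?_⟩
  · rw [hs, ← hp, h1]
    have e : 2 * r * c.top = r * c.top + r * c.top := by ring
    rw [e]; omega
  · show C * 2 ^ (c.K + 1) - a t = _
    rw [h3 t ht hv, pow_succ]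
    have e : C * (2 ^ c.K * 2) = C * 2 ^ c.K + C * 2 ^ c.K := by ring
    rw [e]; omega
  · have e : 2 ^ c.F * (-v) - ∑ t ∈ range c.L, (((C * 2 ^ (c.K + 1) - a t : ℕ) : ℝ) - ((C * 2 ^ c.K : ℕ) : ℝ)) * c.m t
        = -(2 ^ c.F * v - ∑ t ∈ range c.L, ((a t : ℝ) - ((C * 2 ^ c.K : ℕ) : ℝ)) * c.m t) := by
      have : ∑ t ∈ range c.L, (((C * 2 ^ (c.K + 1) - a t : ℕ) : ℝ) - ((C * 2 ^ c.K : ℕ) : ℝ)) * c.m t
          = -∑ t ∈ range c.L, ((a t : ℝ) - ((C * 2 ^ c.K : ℕ) : ℝ)) * c.m t := by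
        rw [← sum_neg_distrib]
        refine sum_congr rfl fun t ht => ?_
        rw [Nat.cast_sub (h2 t (mem_range.1 ht))]
        push_cast; ring
      rw [this]; ring
    rw [e, abs_neg]; exact h4

/-- constants: lane `0` is `x`, all other lanes `2^K` -/
theorem in_cst {c : Cfg} (hc : c.Ok) {x r : ℕ} {v : ℝ} (hx : x < 2 ^ (c.K + 1))
    (h : |2 ^ c.F * v - ((x : ℝ) - 2 ^ c.K)| ≤ (r : ℝ)) :
    c.In (2 ^ c.K * c.O - 2 ^ c.K + r * c.top + x) v := by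
  have hK : 2 ^ c.K < 2 ^ (c.K + 1) := Nat.pow_lt_pow_right (by norm_num) (Nat.lt_succ_self _)
  refine ⟨fun t => if t = 0 then x else 2 ^ c.K, r, ?_, fun t ht => ?_, fun t ht hv => ?_, ?_⟩
  · rw [lin_base hc]; ring
  · show (if t = 0 then x else 2 ^ c.K) ≤ _
    split_ifs <;> omega
  · show (if t = 0 then x else 2 ^ c.K) = _
    rw [if_neg]; rintro rfl; exact hv hc.V0
  · rw [sum_eq_single 0]
    · simpa [hc.m0] using h
    · intro b _ hb; simp [hb]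
    · intro h0; exact absurd (mem_range.2 hc.L_pos) h0

/-- variables: lane `0` is `x`, lane `w` is `2^K + a` -/
theorem in_var {c : Cfg} (hc : c.Ok) {x a w : ℕ} (hx : x < 2 ^ (c.K + 1)) (ha : a < 2 ^ c.K) (hw : c.V w)
    (h0 : 0 < w) (hL : w < c.L) :
    c.In (2 ^ c.K * c.O - 2 ^ c.K + x + a * 2 ^ (c.W * w))
      (((x : ℝ) - 2 ^ c.K) / 2 ^ c.F + (a : ℝ) / 2 ^ c.F * c.m w) := by
  have hK : 2 ^ (c.K + 1) = 2 ^ c.K + 2 ^ c.K := by ring
  refine ⟨fun t => (if t = 0 then x else 2 ^ c.K) + (if t = w then a else 0), 0, ?_, fun t ht => ?_,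
    fun t ht hv => ?_, ?_⟩
  · rw [lin_pk_add, lin_base hc, lin_pk_one c hL]; ring
  · show (if t = 0 then x else 2 ^ c.K) + (if t = w then a else 0) ≤ _
    split_ifs <;> omega
  · show (if t = 0 then x else 2 ^ c.K) + (if t = w then a else 0) = _
    rw [if_neg, if_neg, add_zero]
    · rintro rfl; exact hv hw
    · rintro rfl; exact hv hc.V0
  · have e : ∑ t ∈ range c.L, ((((if t = 0 then x else 2 ^ c.K) + (if t = w then a else 0) : ℕ) : ℝ)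
        - ((2 ^ c.K : ℕ) : ℝ)) * c.m t = ((x : ℝ) - 2 ^ c.K) + a * c.m w := by
      have : ∀ t ∈ range c.L, ((((if t = 0 then x else 2 ^ c.K) + (if t = w then a else 0) : ℕ) : ℝ)
          - ((2 ^ c.K : ℕ) : ℝ)) * c.m t = (if t = 0 then ((x : ℝ) - 2 ^ c.K) * c.m t else 0)
            + (if t = w then (a : ℝ) * c.m t else 0) := by
        intro t _
        split_ifs <;> push_cast <;> ring
      rw [sum_congr rfl this, sum_add_distrib, sum_ite_eq', sum_ite_eq', if_pos (mem_range.2 hc.L_pos),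
        if_pos (mem_range.2 hL), hc.m0, mul_one]
    rw [e]
    have h2 : (2 : ℝ) ^ c.F ≠ 0 := by positivity
    have : 2 ^ c.F * (((x : ℝ) - 2 ^ c.K) / 2 ^ c.F + (a : ℝ) / 2 ^ c.F * c.m w) - (((x : ℝ) - 2 ^ c.K) + a * c.m w) = 0 := by
      field_simp; ring
    rw [this]; simp

theorem in_err {c : Cfg} {X p : ℕ} {v v' : ℝ} (h : c.In X v) (hp : |2 ^ c.F * (v' - v)| ≤ (p : ℝ)) :
    c.In (X + p * c.top) v' := by
  obtain ⟨a, r, h1, h2, h3, h4⟩ := h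
  refine ⟨a, r + p, ?_, h2, h3, ?_⟩
  · rw [h1]; ring
  · have e : 2 ^ c.F * v' - ∑ t ∈ range c.L, ((a t : ℝ) - ((2 ^ c.K : ℕ) : ℝ)) * c.m t
        = (2 ^ c.F * v - ∑ t ∈ range c.L, ((a t : ℝ) - ((2 ^ c.K : ℕ) : ℝ)) * c.m t) + 2 ^ c.F * (v' - v) := by ring
    rw [e, Nat.cast_add]
    exact (abs_add_le _ _).trans (add_le_add h4 hp)

end Crest.Agent.TM
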