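import Crest.Agent.Lib.TM.Cv

/-! # Lib/TM/MulR : product, real part -/

set_option autoImplicit false

namespace Crest.Agent.TM

open Finset Crest.Agent.Bern

theorem cv_le {L u : ℕ} (hu : u < L) (z z' : ℕ → ℤ) :
    |cv z z' u| ≤ (∑ t ∈ range L, |z t|) * ∑ t ∈ range L, |z' t| := by
  unfold cv
  refine (abs_sum_le_sum_abs _ _).trans ?_
  rw [sum_mul]
  refine le_trans (sum_le_sum fun s _ => ?_) (sum_le_sum_of_subset_of_nonneg (range_subset_range.2 hu)
    fun s _ _ => mul_nonneg (abs_nonneg _) (sum_nonneg fun _ _ => abs_nonneg _))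
  rw [abs_mul]
  exact mul_le_mul_of_nonneg_left (single_le_sum (f := fun t => |z' t|) (fun _ _ => abs_nonneg _)
    (mem_range.2 (by omega))) (abs_nonneg _)

theorem cv_inv {c : Cfg} (hc : c.Ok) {z z' : ℕ → ℤ} (hz : ∀ t < c.L, ¬ c.V t → z t = 0)
    (hz' : ∀ t < c.L, ¬ c.V t → z' t = 0) {u : ℕ} (hu : u < c.L) (hV : ¬ c.V u) : cv z z' u = 0 := by
  refine sum_eq_zero fun s hs => ?_
  have hs' : s ≤ u := Nat.lt_succ_iff.1 (mem_range.1 hs)
  by_cases h1 : c.V s
  · by_cases h2 : c.V (u - s)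
    · have h3 := (hc.mul s (u - s) h1 h2 (by omega)).1
      rw [Nat.add_sub_cancel' hs'] at h3
      exact absurd h3 hV
    · rw [hz' _ (by omega) h2, mul_zero]
  · rw [hz _ (by omega) h1, zero_mul]

/-- real part: the dropped pairs `L ≤ s + t` have `s / M = i + 1`, `N - i ≤ t / M` for some `i < N` -/
theorem mul_real {c : Cfg} (hc : c.Ok) {z z' : ℕ → ℤ} {T T' : ℕ → ℕ} (hz : ∀ t < c.L, ¬ c.V t → z t = 0)
    (hz' : ∀ t < c.L, ¬ c.V t → z' t = 0) (hT : ∀ j ≤ c.N, ∑ t ∈ Ico (c.M * j) c.L, |z t| ≤ (T j : ℤ))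
    (hT' : ∀ j ≤ c.N, ∑ t ∈ Ico (c.M * j) c.L, |z' t| ≤ (T' j : ℤ)) :
    |(∑ t ∈ range c.L, (z t : ℝ) * c.m t) * (∑ t ∈ range c.L, (z' t : ℝ) * c.m t) -
      ∑ u ∈ range c.L, (cv z z' u : ℝ) * c.m u| ≤ ((∑ i ∈ range c.N, T (i + 1) * T' (c.N - i) : ℕ) : ℝ) := by
  have e1 : ∑ u ∈ range c.L, (cv z z' u : ℝ) * c.m u
      = ∑ s ∈ range c.L, ∑ t ∈ range (c.L - s), ((z s : ℝ) * c.m s) * ((z' t : ℝ) * c.m t) := by
    rw [← sum_range_diag_flip c.L fun s t => ((z s : ℝ) * c.m s) * ((z' t : ℝ) * c.m t)]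
    refine sum_congr rfl fun u hu => ?_
    have hu' := mem_range.1 hu
    unfold cv
    push_cast
    rw [sum_mul]
    refine sum_congr rfl fun s hs => ?_
    have hs' : s ≤ u := Nat.lt_succ_iff.1 (mem_range.1 hs)
    by_cases h1 : c.V s
    · by_cases h2 : c.V (u - s)
      · have h3 := (hc.mul s (u - s) h1 h2 (by omega)).2
        rw [Nat.add_sub_cancel' hs'] at h3
        rw [h3]; ring
      · rw [hz' _ (by omega) h2]; simp
    · rw [hz _ (by omega) h1]; simp
  set g : ℕ → ℕ → ℕ → ℝ := fun i s t => (if c.M * (i + 1) ≤ s then |(z s : ℝ)| else 0)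
    * (if c.M * (c.N - i) ≤ t then |(z' t : ℝ)| else 0) with hg
  have g0 : ∀ i s t, 0 ≤ g i s t := fun i s t =>
    mul_nonneg (by split_ifs <;> positivity) (by split_ifs <;> positivity)
  have key : ∀ s < c.L, ∀ t < c.L, c.L ≤ s + t →
      |((z s : ℝ) * c.m s) * ((z' t : ℝ) * c.m t)| ≤ ∑ i ∈ range c.N, g i s t := by
    intro s hs t ht hst
    by_cases h1 : c.V s
    · by_cases h2 : c.V t
      · have h3 := hc.deg s t h1 h2 hs ht hst
        have h4 : s / c.M < c.N + 1 := (Nat.div_lt_iff_lt_mul hc.hM).2 (by rw [Nat.mul_comm, ← hc.hL]; exact hs)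
        have h5 : t / c.M < c.N + 1 := (Nat.div_lt_iff_lt_mul hc.hM).2 (by rw [Nat.mul_comm, ← hc.hL]; exact ht)
        refine le_trans ?_ (single_le_sum (f := fun i => g i s t) (fun i _ => g0 i s t)
          (mem_range.2 (show s / c.M - 1 < c.N by omega)))
        have h6 : c.M * (s / c.M - 1 + 1) ≤ s :=
          (Nat.mul_le_mul_left _ (by omega)).trans (Nat.mul_div_le s c.M)
        have h7 : c.M * (c.N - (s / c.M - 1)) ≤ t :=
          (Nat.mul_le_mul_left _ (by omega)).trans (Nat.mul_div_le t c.M)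
        simp only [hg, if_pos h6, if_pos h7, abs_mul]
        exact mul_le_mul (mul_le_of_le_one_right (abs_nonneg _) (hc.le1 s))
          (mul_le_of_le_one_right (abs_nonneg _) (hc.le1 t)) (by positivity) (abs_nonneg _)
      · rw [hz' t ht h2]
        simpa using sum_nonneg fun i _ => g0 i s t
    · rw [hz s hs h1]
      simpa using sum_nonneg fun i _ => g0 i s t
  have e2 : ∀ (w : ℕ → ℤ) (j : ℕ), ∑ s ∈ range c.L, (if c.M * j ≤ s then |(w s : ℝ)| else 0)
      = ((∑ t ∈ Ico (c.M * j) c.L, |w t| : ℤ) : ℝ) := by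
    intro w j
    rw [← sum_filter]
    push_cast
    refine sum_congr ?_ fun _ _ => rfl
    ext s
    simp only [mem_filter, mem_range, mem_Ico, and_comm]
  rw [e1, sum_mul_sum, ← sum_sub_distrib]
  refine (abs_sum_le_sum_abs _ _).trans ?_
  calc _ ≤ ∑ s ∈ range c.L, ∑ t ∈ range c.L, ∑ i ∈ range c.N, g i s t := by
        refine sum_le_sum fun s hs => ?_
        rw [← sum_Ico_eq_sub _ (Nat.sub_le _ _)]
        refine (abs_sum_le_sum_abs _ _).trans (le_trans (sum_le_sum fun t ht => ?_)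
          (sum_le_sum_of_subset_of_nonneg (s := Ico (c.L - s) c.L) (fun t ht => mem_range.2 (mem_Ico.1 ht).2)
            fun t _ _ => sum_nonneg fun i _ => g0 i s t))
        have := mem_Ico.1 ht
        exact key s (mem_range.1 hs) t this.2 (by omega)
    _ = ∑ i ∈ range c.N, ∑ s ∈ range c.L, ∑ t ∈ range c.L, g i s t := by
        rw [sum_comm_cycle]
    _ ≤ _ := by
        push_cast
        refine sum_le_sum fun i hi => ?_
        have hi' := mem_range.1 hi
        simp only [hg]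
        rw [← sum_mul_sum, e2, e2]
        have h1 : ((∑ t ∈ Ico (c.M * (i + 1)) c.L, |z t| : ℤ) : ℝ) ≤ T (i + 1) := by
          exact_mod_cast hT (i + 1) (by omega)
        have h2 : ((∑ t ∈ Ico (c.M * (c.N - i)) c.L, |z' t| : ℤ) : ℝ) ≤ T' (c.N - i) := by
          exact_mod_cast hT' (c.N - i) (by omega)
        exact mul_le_mul h1 h2 (by exact_mod_cast sum_nonneg fun _ _ => abs_nonneg _) (Nat.cast_nonneg _)

end Crest.Agent.TM
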