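import Crest.Agent.Lib.TM.MulI
import Crest.Agent.Lib.TM.MulR

/-! # Lib/TM/Mul : product -/

set_option autoImplicit false

namespace Crest.Agent.TM

open Finset Crest.Agent.Bern

theorem mul_abs_le {c : Cfg} (hc : c.Ok) {z : ℕ → ℤ} {T0 : ℕ} (h : ∑ t ∈ range c.L, |z t| ≤ (T0 : ℤ)) :
    |∑ t ∈ range c.L, (z t : ℝ) * c.m t| ≤ (T0 : ℝ) := by
  refine (Finset.abs_sum_le_sum_abs _ _).trans ?_
  have h1 : ((∑ t ∈ range c.L, |z t| : ℤ) : ℝ) ≤ ((T0 : ℤ) : ℝ) := Int.cast_le.2 h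
  push_cast at h1
  refine le_trans (Finset.sum_le_sum fun t _ => ?_) h1
  rw [abs_mul]
  exact mul_le_of_le_one_right (abs_nonneg _) (hc.le1 t)

theorem mul_div_bd (n F : ℕ) : |((n / 2 ^ F : ℕ) : ℝ) - (n : ℝ) / 2 ^ F| ≤ 1 := by
  have hp : (0 : ℝ) < 2 ^ F := by positivity
  have h1 : 2 ^ F * (n / 2 ^ F) + n % 2 ^ F = n := Nat.div_add_mod n _
  have h2 : n % 2 ^ F < 2 ^ F := Nat.mod_lt _ (by positivity)
  have h3 : (2 : ℝ) ^ F * ((n / 2 ^ F : ℕ) : ℝ) + ((n % 2 ^ F : ℕ) : ℝ) = n := by exact_mod_cast h1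
  have h4 : ((n % 2 ^ F : ℕ) : ℝ) < 2 ^ F := by exact_mod_cast h2
  have h5 : (0 : ℝ) ≤ ((n % 2 ^ F : ℕ) : ℝ) := Nat.cast_nonneg _
  have e : ((n / 2 ^ F : ℕ) : ℝ) - (n : ℝ) / 2 ^ F = -(((n % 2 ^ F : ℕ) : ℝ) / 2 ^ F) := by
    rw [← h3]; field_simp; ring
  rw [e, abs_neg, abs_of_nonneg (by positivity), div_le_one hp]
  exact h4.le

theorem mul_s {c : Cfg} (hc : c.Ok) {XM r YM r' : ℕ} {T T' : ℕ → ℕ} {v v' : ℝ} (h : c.Nrm XM r T v)
    (h' : c.Nrm YM r' T' v') (hb : T 0 * T' 0 < 2 ^ (c.W - 1)) :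
    c.In ((((XM * YM + 2 ^ (c.W - 1) * c.O) >>> c.F) &&& ((2 ^ (c.K + 1) - 1) * c.O)) +
      ((r * (T' 0 + r') + r' * T 0 + ∑ i ∈ range c.N, T (i + 1) * T' (c.N - i)) >>> c.F + (c.L + 1)) * c.top) (v * v') := by
  obtain ⟨z, hz, hzV, hT, hr⟩ := h
  obtain ⟨z', hz', hzV', hT', hr'⟩ := h'
  have hS : ∑ t ∈ range c.L, |z t| ≤ (T 0 : ℤ) := by
    have := hT 0 (Nat.zero_le _)
    rwa [Nat.mul_zero, ← Finset.range_eq_Ico] at this
  have hS' : ∑ t ∈ range c.L, |z' t| ≤ (T' 0 : ℤ) := by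
    have := hT' 0 (Nat.zero_le _)
    rwa [Nat.mul_zero, ← Finset.range_eq_Ico] at this
  have hW1 : c.W - 1 = c.F + c.K := by rw [hc.hW]; omega
  have hcv : ∀ u < c.L, |cv z z' u| < 2 ^ (c.W - 1) := fun u hu => by
    have h1 := cv_le hu z z'
    have h2 : (∑ t ∈ range c.L, |z t|) * (∑ t ∈ range c.L, |z' t|) ≤ (T 0 : ℤ) * (T' 0 : ℤ) :=
      mul_le_mul hS hS' (Finset.sum_nonneg fun _ _ => abs_nonneg _) (Int.natCast_nonneg _)
    have h3 : ((T 0 * T' 0 : ℕ) : ℤ) < ((2 ^ (c.W - 1) : ℕ) : ℤ) := Int.ofNat_lt.2 hb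
    push_cast at h3
    exact lt_of_le_of_lt (h1.trans h2) h3
  have hn : ∀ u < c.L, (((cv z z' u + 2 ^ (c.W - 1)).toNat : ℕ) : ℤ) = cv z z' u + 2 ^ (c.W - 1) :=
    fun u hu => Int.toNat_of_nonneg (by have := (abs_lt.1 (hcv u hu)).1; linarith)
  rw [mul_int hc hz hz' hcv]
  refine ⟨_, _, rfl, fun u hu => ?_, fun u hu hV => ?_, ?_⟩
  · have h1 : (cv z z' u + 2 ^ (c.W - 1)).toNat < 2 ^ c.F * 2 ^ (c.K + 1) := by
      have h2 := (abs_lt.1 (hcv u hu)).2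
      have h3 : (((cv z z' u + 2 ^ (c.W - 1)).toNat : ℕ) : ℤ) < ((2 ^ c.F * 2 ^ (c.K + 1) : ℕ) : ℤ) := by
        rw [hn u hu]
        push_cast
        rw [hW1] at h2 ⊢
        have e : (2 : ℤ) ^ c.F * 2 ^ (c.K + 1) = 2 ^ (c.F + c.K) + 2 ^ (c.F + c.K) := by ring
        rw [e]; linarith
      exact_mod_cast h3
    have h4 := Nat.div_lt_of_lt_mul h1
    omega
  · show (cv z z' u + 2 ^ (c.W - 1)).toNat / 2 ^ c.F = 2 ^ c.K
    have h1 := hn u hu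
    rw [cv_inv hc hzV hzV' hu hV] at h1 ⊢
    have h2 : ((0 : ℤ) + 2 ^ (c.W - 1)).toNat = 2 ^ c.F * 2 ^ c.K := by
      have h3 : ((((0 : ℤ) + 2 ^ (c.W - 1)).toNat : ℕ) : ℤ) = ((2 ^ c.F * 2 ^ c.K : ℕ) : ℤ) := by
        rw [h1, hW1]; push_cast; ring
      exact_mod_cast h3
    rw [h2, Nat.mul_div_cancel_left _ (by positivity)]
  · have hE := mul_real hc hzV hzV' hT hT'
    have hP := mul_abs_le hc hS
    have hP' := mul_abs_le hc hS'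
    set P := ∑ t ∈ range c.L, (z t : ℝ) * c.m t with hPd
    set P' := ∑ t ∈ range c.L, (z' t : ℝ) * c.m t with hPd'
    set C := ∑ u ∈ range c.L, (cv z z' u : ℝ) * c.m u with hCd
    set E : ℕ := ∑ i ∈ range c.N, T (i + 1) * T' (c.N - i) with hEd
    set Rn : ℕ := r * (T' 0 + r') + r' * T 0 + E with hRn
    have hp : (0 : ℝ) < 2 ^ c.F := by positivity
    have h1 : |2 ^ c.F * v * (2 ^ c.F * v') - C| ≤ (Rn : ℝ) := by
      have e : 2 ^ c.F * v * (2 ^ c.F * v') - C =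
          (2 ^ c.F * v - P) * (2 ^ c.F * v') + (2 ^ c.F * v' - P') * P + (P * P' - C) := by ring
      have a1 : |2 ^ c.F * v'| ≤ (T' 0 : ℝ) + r' := by
        have : 2 ^ c.F * v' = P' + (2 ^ c.F * v' - P') := by ring
        rw [this]
        exact (abs_add_le _ _).trans (add_le_add hP' hr')
      have a2 : |(2 ^ c.F * v - P) * (2 ^ c.F * v')| ≤ (r : ℝ) * ((T' 0 : ℝ) + r') := by
        rw [abs_mul]
        exact mul_le_mul hr a1 (abs_nonneg _) (Nat.cast_nonneg _)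
      have a3 : |(2 ^ c.F * v' - P') * P| ≤ (r' : ℝ) * (T 0 : ℝ) := by
        rw [abs_mul]
        exact mul_le_mul hr' hP (abs_nonneg _) (Nat.cast_nonneg _)
      rw [e, hRn]
      push_cast
      refine (abs_add_le _ _).trans (add_le_add ((abs_add_le _ _).trans (add_le_add a2 a3)) hE)
    have h2 : |2 ^ c.F * (v * v') - C / 2 ^ c.F| ≤ (Rn : ℝ) / 2 ^ c.F := by
      have e : 2 ^ c.F * (v * v') - C / 2 ^ c.F = (2 ^ c.F * v * (2 ^ c.F * v') - C) / 2 ^ c.F := by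
        field_simp
      rw [e, abs_div, abs_of_pos hp]
      exact div_le_div_of_nonneg_right h1 hp.le
    have h3 : (Rn : ℝ) / 2 ^ c.F ≤ ((Rn >>> c.F : ℕ) : ℝ) + 1 := by
      rw [Nat.shiftRight_eq_div_pow]
      have := (abs_le.1 (mul_div_bd Rn c.F)).1
      linarith
    have h4 : |C / 2 ^ c.F - ∑ u ∈ range c.L,
        ((((cv z z' u + 2 ^ (c.W - 1)).toNat / 2 ^ c.F : ℕ) : ℝ) - ((2 ^ c.K : ℕ) : ℝ)) * c.m u| ≤ (c.L : ℝ) := by
      rw [hCd, Finset.sum_div, ← Finset.sum_sub_distrib]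
      refine (Finset.abs_sum_le_sum_abs _ _).trans ?_
      have hL : (c.L : ℝ) = ∑ _u ∈ range c.L, (1 : ℝ) := by simp
      rw [hL]
      refine Finset.sum_le_sum fun u hu => ?_
      have hu' := Finset.mem_range.1 hu
      have b1 := mul_div_bd (cv z z' u + 2 ^ (c.W - 1)).toNat c.F
      have b2 : (((cv z z' u + 2 ^ (c.W - 1)).toNat : ℕ) : ℝ) = (cv z z' u : ℝ) + 2 ^ c.F * 2 ^ c.K := by
        have b3 : ((((cv z z' u + 2 ^ (c.W - 1)).toNat : ℕ) : ℤ) : ℝ) =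
            ((cv z z' u + 2 ^ (c.W - 1) : ℤ) : ℝ) := by rw [hn u hu']
        rw [Int.cast_natCast] at b3
        rw [b3, hW1]
        push_cast
        ring
      rw [b2] at b1
      have e : (cv z z' u : ℝ) * c.m u / 2 ^ c.F -
          ((((cv z z' u + 2 ^ (c.W - 1)).toNat / 2 ^ c.F : ℕ) : ℝ) - ((2 ^ c.K : ℕ) : ℝ)) * c.m u =
          -((((cv z z' u + 2 ^ (c.W - 1)).toNat / 2 ^ c.F : ℕ) : ℝ) -
            ((cv z z' u : ℝ) + 2 ^ c.F * 2 ^ c.K) / 2 ^ c.F) * c.m u := by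
        rw [Nat.cast_pow, Nat.cast_ofNat]
        field_simp
        ring
      rw [e, abs_mul, abs_neg]
      exact mul_le_one₀ b1 (abs_nonneg _) (hc.le1 u)
    have h5 := abs_sub_le (2 ^ c.F * (v * v')) (C / 2 ^ c.F) (∑ u ∈ range c.L,
        ((((cv z z' u + 2 ^ (c.W - 1)).toNat / 2 ^ c.F : ℕ) : ℝ) - ((2 ^ c.K : ℕ) : ℝ)) * c.m u)
    rw [Nat.cast_add, Nat.cast_add, Nat.cast_one]
    linarith

end Crest.Agent.TM
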