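import Crest.Agent.Lib.TM.Cv

/-! # Lib/TM/MulI : product, integer part -/

set_option autoImplicit false

namespace Crest.Agent.TM

open Finset Crest.Agent.Bern

theorem muli_conv (W L : ℕ) (z z' : ℕ → ℤ) :
    (∑ t ∈ range L, z t * 2 ^ (W * t)) * (∑ t ∈ range L, z' t * 2 ^ (W * t)) ≡
      ∑ u ∈ range L, cv z z' u * 2 ^ (W * u) [ZMOD 2 ^ (W * L)] := by
  have e : ∑ u ∈ range L, cv z z' u * 2 ^ (W * u) =
      ∑ s ∈ range L, ∑ t ∈ range L, if s + t < L then z s * z' t * 2 ^ (W * (s + t)) else 0 := by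
    have e1 := Finset.sum_range_diag_flip L (fun s t => z s * z' t * (2 : ℤ) ^ (W * (s + t)))
    have e2 : ∑ u ∈ range L, cv z z' u * 2 ^ (W * u) =
        ∑ m ∈ range L, ∑ k ∈ range (m + 1), z k * z' (m - k) * (2 : ℤ) ^ (W * (k + (m - k))) := by
      refine sum_congr rfl fun u _ => ?_
      rw [cv, sum_mul]
      refine sum_congr rfl fun k hk => ?_
      rw [Nat.add_sub_cancel' (Nat.lt_succ_iff.1 (mem_range.1 hk))]
    rw [e2, e1]
    refine sum_congr rfl fun s _ => ?_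
    rw [← sum_filter]
    refine sum_congr ?_ fun _ _ => rfl
    ext t
    simp only [mem_range, mem_filter]
    omega
  rw [e, sum_mul_sum]
  refine (Int.modEq_iff_dvd.2 ?_)
  rw [← sum_sub_distrib]
  refine dvd_sum fun s _ => ?_
  rw [← sum_sub_distrib]
  refine dvd_sum fun t _ => ?_
  by_cases hst : s + t < L
  · rw [if_pos hst, Nat.mul_add, pow_add]
    exact ⟨0, by ring⟩
  · rw [if_neg hst]
    obtain ⟨k, hk⟩ := Nat.exists_eq_add_of_le (not_lt.1 hst)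
    refine ⟨-(z s * z' t * 2 ^ (W * k)), ?_⟩
    have : (2 : ℤ) ^ (W * s) * 2 ^ (W * t) = 2 ^ (W * L) * 2 ^ (W * k) := by
      rw [← pow_add, ← pow_add, ← Nat.mul_add, ← Nat.mul_add, hk]
    linear_combination (-(z s * z' t)) * this

theorem muli_shift {F K W : ℕ} (hW : W = F + K + 1) (Y t : ℕ) :
    lane W (Y >>> F) t &&& (2 ^ (K + 1) - 1) = lane W Y t / 2 ^ F := by
  refine Nat.eq_of_testBit_eq fun i => ?_
  rw [Nat.testBit_and, testBit_lane, Nat.testBit_shiftRight, Nat.testBit_two_pow_sub_one, Nat.testBit_div_two_pow,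
    testBit_lane, show F + (W * t + i) = W * t + (i + F) by omega]
  by_cases hi : i < K + 1
  · simp [hi, show i < W by omega, show i + F < W by omega]
  · simp [hi, show ¬ i + F < W by omega]

/-- integer part: the lanes of `XM YM + 2^(W-1) O` are `cv z z' u + 2^(W-1)`; after the shift and the mask they are
`(cv z z' u + 2^(W-1)).toNat / 2^F` -/
theorem mul_int {c : Cfg} (hc : c.Ok) {XM YM : ℕ} {z z' : ℕ → ℤ}
    (h : (XM : ℤ) ≡ ∑ t ∈ range c.L, z t * 2 ^ (c.W * t) [ZMOD 2 ^ (c.W * c.L)])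
    (h' : (YM : ℤ) ≡ ∑ t ∈ range c.L, z' t * 2 ^ (c.W * t) [ZMOD 2 ^ (c.W * c.L)])
    (hb : ∀ u < c.L, |cv z z' u| < 2 ^ (c.W - 1)) :
    ((XM * YM + 2 ^ (c.W - 1) * c.O) >>> c.F) &&& ((2 ^ (c.K + 1) - 1) * c.O) =
      c.pk (fun u => (cv z z' u + 2 ^ (c.W - 1)).toNat / 2 ^ c.F) := by
  have hW := hc.W_pos
  have hp : (2 : ℤ) ^ c.W = 2 * 2 ^ (c.W - 1) := by
    rw [← pow_succ', Nat.sub_add_cancel hW]
  obtain ⟨a, ha⟩ : ∃ a : ℕ → ℕ, a = fun u => (cv z z' u + 2 ^ (c.W - 1)).toNat := ⟨_, rfl⟩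
  have ha1 : ∀ u < c.L, (a u : ℤ) = cv z z' u + 2 ^ (c.W - 1) := fun u hu => by
    rw [ha]
    exact Int.toNat_of_nonneg (by linarith [(abs_lt.1 (hb u hu)).1])
  have ha2 : ∀ u < c.L, a u < 2 ^ c.W := fun u hu => by
    have h1 : (a u : ℤ) < 2 ^ c.W := by rw [ha1 u hu, hp]; linarith [(abs_lt.1 (hb u hu)).2]
    exact_mod_cast h1
  have e1 : ((XM * YM + 2 ^ (c.W - 1) * c.O : ℕ) : ℤ) ≡ (c.pk a : ℕ) [ZMOD (c.top : ℕ)] := by
    have h1 := ((h.mul h').trans (muli_conv c.W c.L z z')).add_right (2 ^ (c.W - 1) * (c.O : ℤ))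
    have h2 : ((c.pk a : ℕ) : ℤ) = ∑ u ∈ range c.L, cv z z' u * 2 ^ (c.W * u) + 2 ^ (c.W - 1) * (c.O : ℤ) := by
      rw [Cfg.O_eq hc]
      unfold Cfg.pk
      push_cast
      rw [mul_sum, ← sum_add_distrib]
      refine sum_congr rfl fun u hu => ?_
      rw [ha1 u (mem_range.1 hu)]
      ring
    rw [h2]
    unfold Cfg.top
    push_cast
    exact h1
  have e2 : (XM * YM + 2 ^ (c.W - 1) * c.O) % c.top = c.pk a := by
    have h1 := Int.natCast_modEq_iff.1 e1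
    rw [Nat.ModEq, Nat.mod_eq_of_lt (Cfg.pk_lt ha2)] at h1
    exact h1
  generalize XM * YM + 2 ^ (c.W - 1) * c.O = Y at e2 ⊢
  have e3 : Y = c.pk a + Y / c.top * c.top := by rw [← e2, Nat.mod_add_div']
  have hK : 2 ^ (c.K + 1) - 1 < 2 ^ c.W :=
    lt_of_lt_of_le (Nat.sub_lt (by positivity) one_pos) (Nat.pow_le_pow_right two_pos (by rw [hc.hW]; omega))
  refine eq_of_lane hW fun t => ?_
  have e4 : c.pk (fun u => (cv z z' u + 2 ^ (c.W - 1)).toNat / 2 ^ c.F) = ∑ u ∈ range c.L, a u / 2 ^ c.F * 2 ^ (c.W * u) := by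
    rw [ha]; rfl
  rw [lane_land, Cfg.O, lane_mul_ones hW hK, e4,
    lane_sum c.W c.L (fun u => a u / 2 ^ c.F) fun u hu => (Nat.div_le_self _ _).trans_lt (ha2 u hu)]
  by_cases ht : t < c.L
  · rw [if_pos ht, if_pos ht, muli_shift hc.hW, e3, Cfg.lane_pk ha2 _ ht]
  · rw [if_neg ht, if_neg ht, Nat.and_zero]

end Crest.Agent.TM
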