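import Crest.Agent.Lib.TM.Nrm0

/-! # Lib/TM/Nrm : norms -/

set_option autoImplicit false

namespace Crest.Agent.TM

open Finset Crest.Agent.Bern

/-- `z t = a t - 2^K`; `A = pk (fun t => |z t|)` -/
theorem nrm_s {c : Cfg} (hc : c.Ok) {X A : ℕ} {v : ℝ} {T : ℕ → ℕ} (h : c.In X v)
    (hA : A = 2 * c.ps X + 2 ^ c.K * c.O - (X &&& (c.top - 1)))
    (hT : ∀ j ≤ c.N, (A >>> (c.W * (c.M * j))) % (2 ^ c.W - 1) ≤ T j) :
    c.Nrm (X + (c.top - 2 ^ c.K * c.O)) (X >>> (c.W * c.L)) T v := by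
  obtain ⟨a, r, hX, hU, hV, hv⟩ := h
  have hKW : 2 ^ (c.K + 1) ≤ 2 ^ c.W := Nat.pow_le_pow_right (by norm_num) (by rw [hc.hW]; omega)
  have hK2 : 2 ^ (c.K + 1) = 2 * 2 ^ c.K := by ring
  have hKp : 0 < 2 ^ c.K := by positivity
  have ha : ∀ t < c.L, a t < 2 ^ c.W := fun t ht => by have := hU t ht; omega
  have hO : 2 ^ c.K * c.O = c.pk (fun _ => 2 ^ c.K) := by
    rw [Cfg.O_eq hc]; unfold Cfg.pk; rw [mul_sum]
    exact sum_congr rfl fun t _ => by ring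
  have hlt : 2 ^ c.K * c.O < c.top := by
    rw [hO]; exact Cfg.pk_lt fun t _ => by omega
  have hAb : A = c.pk (fun t => 2 * (a t - 2 ^ c.K) + 2 ^ c.K - a t) := by
    rw [hA, hX, ps_eq hc hU, Cfg.low_pk ha, hO]
    have e : 2 * c.pk (fun t => a t - 2 ^ c.K) + c.pk (fun _ => 2 ^ c.K) =
        c.pk (fun t => 2 * (a t - 2 ^ c.K) + 2 ^ c.K - a t) + c.pk a := by
      unfold Cfg.pk
      rw [mul_sum, ← sum_add_distrib, ← sum_add_distrib]
      refine sum_congr rfl fun t _ => ?_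
      have e1 : 2 * (a t - 2 ^ c.K) + 2 ^ c.K = (2 * (a t - 2 ^ c.K) + 2 ^ c.K - a t) + a t := by omega
      calc 2 * ((a t - 2 ^ c.K) * 2 ^ (c.W * t)) + 2 ^ c.K * 2 ^ (c.W * t)
          = (2 * (a t - 2 ^ c.K) + 2 ^ c.K) * 2 ^ (c.W * t) := by ring
        _ = ((2 * (a t - 2 ^ c.K) + 2 ^ c.K - a t) + a t) * 2 ^ (c.W * t) := by rw [← e1]
        _ = _ := by ring
    rw [e, Nat.add_sub_cancel]
  refine ⟨fun t => (a t : ℤ) - 2 ^ c.K, ?_, ?_, ?_, ?_⟩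
  · have e1 : ((X + (c.top - 2 ^ c.K * c.O) : ℕ) : ℤ) =
        ∑ t ∈ range c.L, ((a t : ℤ) - 2 ^ c.K) * 2 ^ (c.W * t) + 2 ^ (c.W * c.L) * (r + 1) := by
      rw [Nat.cast_add, Nat.cast_sub hlt.le, hX, hO]
      unfold Cfg.pk Cfg.top
      push_cast
      simp only [sub_mul, sum_sub_distrib]
      ring
    rw [e1]
    exact (Int.modEq_iff_dvd.2 ⟨-(r + 1), by ring⟩)
  · intro t ht hn
    show (a t : ℤ) - 2 ^ c.K = 0
    rw [hV t ht hn]; push_cast; ring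
  · intro j hj
    have h1 := hT j hj
    rw [hAb, tail_eq hc (fun t ht => by have := hU t ht; omega)] at h1
    refine le_trans (le_of_eq ?_) (Int.ofNat_le.2 h1)
    push_cast
    refine sum_congr rfl fun t _ => ?_
    have hc2 : ((2 ^ c.K : ℕ) : ℤ) = 2 ^ c.K := by push_cast; rfl
    rw [← hc2]
    generalize 2 ^ c.K = P
    rcases le_total (a t) P with h2 | h2
    · rw [abs_of_nonpos (by omega)]; omega
    · rw [abs_of_nonneg (by omega)]; omega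
  · rw [hX, Cfg.shr_pk ha]
    push_cast at hv ⊢
    exact hv

end Crest.Agent.TM
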