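import Crest.Agent.Lib.TM.Defs

/-! # Lib/TM/Nrm0 : positive parts and lane sums -/

set_option autoImplicit false

namespace Crest.Agent.TM

open Finset Crest.Agent.Bern

theorem n0_mask {W G X t : ℕ} (hn : 1 + G ≤ W) :
    lane W (X >>> G) t &&& 1 = (lane W X t / 2 ^ G) &&& 1 := by
  refine Nat.eq_of_testBit_eq fun i => ?_
  rw [Nat.testBit_and, Nat.testBit_and]
  by_cases hi : i < 1
  · rw [Nat.testBit_div_two_pow, testBit_lane, testBit_lane, Nat.testBit_shiftRight]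
    have h2 : G + (W * t + i) = W * t + (i + G) := by ring
    rw [h2, decide_eq_true (show i < W by omega), decide_eq_true (show i + G < W by omega)]
  · have : (1 : ℕ).testBit i = false :=
      Nat.testBit_lt_two_pow (Nat.one_lt_two_pow (by omega))
    simp [this]

theorem n0_F {c : Cfg} (hc : c.Ok) : 1 ≤ c.F := by
  have h1 := hc.hLF
  have h2 := hc.L_pos
  rcases Nat.eq_zero_or_pos c.F with h | h
  · rw [h] at h1; omega
  · exact h

theorem n0_lane {c : Cfg} {a : ℕ → ℕ} (ha : ∀ t < c.L, a t < 2 ^ c.W) (t : ℕ) :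
    lane c.W (c.pk a) t = if t < c.L then a t else 0 := lane_sum c.W c.L a ha t

/-- `ps` keeps `a t - 2^K` (truncated): lane of `(X >>> K) &&& O` is bit `K` of `a t` -/
theorem ps_eq {c : Cfg} (hc : c.Ok) {a : ℕ → ℕ} (ha : ∀ t < c.L, a t ≤ 2 ^ (c.K + 1) - 1) (r : ℕ) :
    c.ps (c.pk a + r * c.top) = c.pk (fun t => a t - 2 ^ c.K) := by
  have hW := hc.W_pos
  have hF := n0_F hc
  have hKW : c.K + 2 ≤ c.W := by rw [hc.hW]; omega
  have hp : 0 < 2 ^ c.K := by positivity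
  have h2 : 2 ^ (c.K + 1) = 2 * 2 ^ c.K := by ring
  have hpw : 2 ^ (c.K + 1) ≤ 2 ^ c.W := Nat.pow_le_pow_right (by norm_num) (by omega)
  have haW : ∀ t < c.L, a t < 2 ^ c.W := fun t ht => by have := ha t ht; omega
  have hq : ∀ t < c.L, a t / 2 ^ c.K < 2 := fun t ht => by
    rw [Nat.div_lt_iff_lt_mul hp]; have := ha t ht; omega
  have e1 : ((c.pk a + r * c.top) >>> c.K) &&& c.O = c.pk (fun t => a t / 2 ^ c.K) := by
    refine eq_of_lane hW fun t => ?_
    have h1 : lane c.W c.O t = if t < c.L then 1 else 0 := by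
      have := lane_mul_ones (c := 1) hW (by omega) c.L t
      rwa [one_mul] at this
    rw [lane_land, h1, n0_lane (fun t ht => by have := hq t ht; omega)]
    split_ifs with ht
    · rw [n0_mask (by omega), Cfg.lane_pk haW r ht, Nat.and_one_is_mod, Nat.mod_eq_of_lt (hq t ht)]
    · simp
  have e2 : c.pk (fun t => a t / 2 ^ c.K) * (2 ^ c.K - 1) = c.pk (fun t => a t / 2 ^ c.K * (2 ^ c.K - 1)) := by
    unfold Cfg.pk
    rw [sum_mul]
    exact sum_congr rfl fun t _ => by ring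
  unfold Cfg.ps
  rw [e1, e2]
  refine eq_of_lane hW fun t => ?_
  have hm : ∀ t < c.L, a t / 2 ^ c.K * (2 ^ c.K - 1) < 2 ^ c.W := fun t ht => by
    have h3 := hq t ht
    have h4 : a t / 2 ^ c.K * (2 ^ c.K - 1) ≤ 1 * (2 ^ c.K - 1) := Nat.mul_le_mul_right _ (by omega)
    omega
  rw [lane_land, n0_lane hm, n0_lane (fun t ht => by have := haW t ht; omega)]
  split_ifs with ht
  · rw [Cfg.lane_pk haW r ht]
    have h3 := ha t ht
    by_cases h4 : a t < 2 ^ c.K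
    · rw [Nat.div_eq_of_lt h4]; simp; omega
    · have h5 : a t / 2 ^ c.K = 1 := by
        have h6 := hq t ht
        have h7 : 0 < a t / 2 ^ c.K := Nat.div_pos (by omega) hp
        omega
      rw [h5, one_mul, Nat.and_two_pow_sub_one_eq_mod, Nat.mod_eq_sub_mod (by omega), Nat.mod_eq_of_lt (by omega)]
  · simp

/-- sum of the lanes `≥ s`: `2^W ≡ 1 [MOD 2^W - 1]` -/
theorem tail_eq {c : Cfg} (hc : c.Ok) {a : ℕ → ℕ} (ha : ∀ t < c.L, a t ≤ 2 ^ (c.K + 1)) (s : ℕ) :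
    (c.pk a >>> (c.W * s)) % (2 ^ c.W - 1) = ∑ t ∈ Ico s c.L, a t := by
  have hW := hc.W_pos
  have hF := n0_F hc
  have hpw : 2 ^ (c.K + 1) < 2 ^ c.W := Nat.pow_lt_pow_right (by norm_num) (by rw [hc.hW]; omega)
  have haW : ∀ t < c.L, a t < 2 ^ c.W := fun t ht => (ha t ht).trans_lt hpw
  have hp : 0 < 2 ^ (c.W * s) := by positivity
  rw [Nat.shiftRight_eq_div_pow]
  rcases le_or_gt c.L s with hs | hs
  · have h1 : c.pk a < 2 ^ (c.W * s) :=
      (Cfg.pk_lt haW).trans_le (Nat.pow_le_pow_right (by norm_num) (Nat.mul_le_mul_left _ hs))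
    rw [Nat.div_eq_of_lt h1, Ico_eq_empty_of_le hs]; simp
  · have e1 : c.pk a = ∑ t ∈ range s, a t * 2 ^ (c.W * t)
        + 2 ^ (c.W * s) * ∑ t ∈ Ico s c.L, a t * 2 ^ (c.W * (t - s)) := by
      unfold Cfg.pk
      rw [← sum_range_add_sum_Ico _ hs.le, mul_sum]
      congr 1
      refine sum_congr rfl fun t ht => ?_
      obtain ⟨k, rfl⟩ := Nat.exists_eq_add_of_le (mem_Ico.1 ht).1
      rw [Nat.add_sub_cancel_left]; ring
    have h1 : ∑ t ∈ range s, a t * 2 ^ (c.W * t) < 2 ^ (c.W * s) := by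
      rw [Nat.mul_comm c.W s]
      exact sum_lt_two_pow _ _ _ fun t ht => haW t (ht.trans hs)
    rw [e1, Nat.add_mul_div_left _ _ hp, Nat.div_eq_of_lt h1, zero_add]
    have hone : 2 ^ c.W ≡ 1 [MOD 2 ^ c.W - 1] :=
      ((Nat.modEq_iff_dvd' Nat.one_le_two_pow).2 dvd_rfl).symm
    have h2 : ∑ t ∈ Ico s c.L, a t * 2 ^ (c.W * (t - s)) ≡ ∑ t ∈ Ico s c.L, a t [MOD 2 ^ c.W - 1] := by
      refine Nat.ModEq.sum fun t _ => ?_
      have h3 := (hone.pow (t - s)).mul_left (a t)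
      rwa [one_pow, mul_one, ← pow_mul] at h3
    have h3 : ∑ t ∈ Ico s c.L, a t ≤ c.L * 2 ^ (c.K + 1) := by
      calc ∑ t ∈ Ico s c.L, a t ≤ (Ico s c.L).card • 2 ^ (c.K + 1) :=
            sum_le_card_nsmul _ _ _ fun t ht => ha t (mem_Ico.1 ht).2
        _ ≤ c.L * 2 ^ (c.K + 1) := by
            rw [smul_eq_mul, Nat.card_Ico]; exact Nat.mul_le_mul_right _ (by omega)
    have h4 : 4 * (c.L * 2 ^ (c.K + 1)) < 2 ^ c.W := by
      have h5 := Nat.mul_lt_mul_of_pos_right hc.hLF (show 0 < 2 ^ (c.K + 1) by positivity)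
      rw [← pow_add, ← add_assoc, ← hc.hW] at h5
      rwa [← mul_assoc]
    have h5 : 0 < 2 ^ (c.K + 1) := by positivity
    rw [h2, Nat.mod_eq_of_lt (by omega)]

end Crest.Agent.TM
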