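import Crest.Agent.Lib.TM.Nrm0

/-! # Lib/TM/Pos : positivity test -/

set_option autoImplicit false

namespace Crest.Agent.TM

open Finset Crest.Agent.Bern

theorem pos_pk_add (c : Cfg) (a b : ℕ → ℕ) : c.pk a + c.pk b = c.pk (fun t => a t + b t) := by
  unfold Cfg.pk
  rw [← sum_add_distrib]
  exact sum_congr rfl fun t _ => by ring

theorem pos_pk_congr (c : Cfg) {a b : ℕ → ℕ} (h : ∀ t < c.L, a t = b t) : c.pk a = c.pk b := by
  unfold Cfg.pk
  exact sum_congr rfl fun t ht => by rw [h t (mem_range.1 ht)]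

theorem pos_lane {c : Cfg} {a : ℕ → ℕ} (ha : ∀ t < c.L, a t < 2 ^ c.W) (t : ℕ) :
    lane c.W (c.pk a) t = if t < c.L then a t else 0 := lane_sum c.W c.L a ha t

theorem pos_land {c : Cfg} (hc : c.Ok) {p : ℕ → ℕ} (hp : ∀ t < c.L, p t < 2 ^ c.W) (OD : ℕ) :
    c.pk p &&& OD = c.pk (fun t => p t &&& lane c.W OD t) := by
  apply eq_of_lane hc.W_pos
  intro t
  rw [lane_land, pos_lane hp, pos_lane (fun t ht => lt_of_le_of_lt Nat.and_le_left (hp t ht))]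
  split_ifs
  · rfl
  · exact Nat.zero_and _

/-- `P + 2^K O - low X` holds the negative parts; `OD` masks the lanes whose monomial may be negative -/
theorem pos_s {c : Cfg} (hc : c.Ok) {X P OD : ℕ} {v : ℝ} (h : c.In X v) (hP : P = c.ps X)
    (hO : ∀ t < c.L, lane c.W OD t = 2 ^ c.W - 1 ∨ (lane c.W OD t = 0 ∧ 0 ≤ c.m t))
    (ht : (P + 2 ^ c.K * c.O - (X &&& (c.top - 1)) + (P &&& OD)) % (2 ^ c.W - 1) + X >>> (c.W * c.L) < P % 2 ^ c.W) :
    0 < v := by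
  obtain ⟨a, r, hX, ha, -, hv⟩ := h
  have hK1 : 2 ^ (c.K + 1) = 2 * 2 ^ c.K := by ring
  have hK0 : 0 < 2 ^ c.K := by positivity
  have hKW : 2 ^ (c.K + 1) ≤ 2 ^ c.W := Nat.pow_le_pow_right (by norm_num) (by rw [hc.hW]; omega)
  have haW : ∀ t < c.L, a t < 2 ^ c.W := fun t ht => by have := ha t ht; omega
  have hpW : ∀ t < c.L, a t - 2 ^ c.K < 2 ^ c.W := fun t ht => by have := haW t ht; omega
  subst hX
  rw [ps_eq hc ha r] at hP
  subst hP
  rw [Cfg.low_pk haW, Cfg.shr_pk haW, pos_land hc hpW] at ht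
  have hO2 : 2 ^ c.K * c.O = c.pk (fun _ => 2 ^ c.K) := by
    rw [Cfg.O_eq hc]
    unfold Cfg.pk
    rw [mul_sum]
    exact sum_congr rfl fun t _ => by ring
  have e1 : c.pk (fun t => a t - 2 ^ c.K) + 2 ^ c.K * c.O - c.pk a = c.pk (fun t => 2 ^ c.K - a t) := by
    have : c.pk (fun t => a t - 2 ^ c.K) + 2 ^ c.K * c.O = c.pk (fun t => 2 ^ c.K - a t) + c.pk a := by
      rw [hO2, pos_pk_add, pos_pk_add]
      exact pos_pk_congr c fun t _ => by omega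
    rw [this, Nat.add_sub_cancel]
  rw [e1, pos_pk_add] at ht
  set q : ℕ → ℕ := fun t => (a t - 2 ^ c.K) &&& lane c.W OD t with hq
  have hb : ∀ t < c.L, (2 ^ c.K - a t) + q t ≤ 2 ^ (c.K + 1) := fun t htL => by
    have h1 : q t ≤ a t - 2 ^ c.K := Nat.and_le_left
    have := ha t htL
    omega
  have e2 := tail_eq hc (a := fun t => (2 ^ c.K - a t) + q t) hb 0
  rw [Nat.mul_zero, Nat.shiftRight_zero, ← range_eq_Ico] at e2
  have e3 : c.pk (fun t => a t - 2 ^ c.K) % 2 ^ c.W = a 0 - 2 ^ c.K := by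
    have := pos_lane hpW 0
    rw [if_pos hc.L_pos] at this
    rw [← this]
    unfold lane
    simp
  rw [e2, e3] at ht
  have htR : (∑ t ∈ range c.L, (((2 ^ c.K - a t : ℕ) : ℝ) + (q t : ℝ))) + (r : ℝ) < ((a 0 - 2 ^ c.K : ℕ) : ℝ) := by
    exact_mod_cast ht
  have key : ∀ t ∈ range c.L, (if t = 0 then ((a 0 - 2 ^ c.K : ℕ) : ℝ) else 0) - (((2 ^ c.K - a t : ℕ) : ℝ) + (q t : ℝ)) ≤
      ((a t : ℝ) - ((2 ^ c.K : ℕ) : ℝ)) * c.m t := by
    intro t htm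
    have htL := mem_range.1 htm
    have hd : (a t : ℝ) - ((2 ^ c.K : ℕ) : ℝ) = ((a t - 2 ^ c.K : ℕ) : ℝ) - ((2 ^ c.K - a t : ℕ) : ℝ) := by
      have : a t + (2 ^ c.K - a t) = (a t - 2 ^ c.K) + 2 ^ c.K := by omega
      have h2 : (a t : ℝ) + ((2 ^ c.K - a t : ℕ) : ℝ) = ((a t - 2 ^ c.K : ℕ) : ℝ) + ((2 ^ c.K : ℕ) : ℝ) := by
        exact_mod_cast this
      linarith
    rw [hd]
    have hn0 : (0 : ℝ) ≤ ((2 ^ c.K - a t : ℕ) : ℝ) := Nat.cast_nonneg _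
    have hp0 : (0 : ℝ) ≤ ((a t - 2 ^ c.K : ℕ) : ℝ) := Nat.cast_nonneg _
    have hq0 : (0 : ℝ) ≤ (q t : ℝ) := Nat.cast_nonneg _
    obtain ⟨m1, m2⟩ := abs_le.1 (hc.le1 t)
    split_ifs with h0
    · subst h0
      rw [hc.m0]
      linarith
    · rcases hO t htL with h1 | ⟨h1, h2⟩
      · have e : q t = a t - 2 ^ c.K := by
          show (a t - 2 ^ c.K) &&& lane c.W OD t = _
          rw [h1, Nat.and_two_pow_sub_one_eq_mod, Nat.mod_eq_of_lt (hpW t htL)]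
        rw [e]
        nlinarith [mul_nonneg hp0 (show 0 ≤ c.m t + 1 by linarith), mul_nonneg hn0 (show 0 ≤ 1 - c.m t by linarith)]
      · nlinarith [mul_nonneg hp0 h2, mul_nonneg hn0 (show 0 ≤ 1 - c.m t by linarith)]
  have hs := sum_le_sum key
  rw [sum_sub_distrib, sum_ite_eq' (range c.L) 0 (fun _ => ((a 0 - 2 ^ c.K : ℕ) : ℝ)), if_pos (mem_range.2 hc.L_pos)] at hs
  have h5 := (abs_le.1 hv).1
  have h6 : 0 < (2 : ℝ) ^ c.F * v := by linarith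
  exact (mul_pos_iff_of_pos_left (by positivity)).1 h6

end Crest.Agent.TM
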